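import Vale.Agent.Lib.P126.LogForm

/-!
# P126: definitions for the quadratic duality bound `log N(L°, 70 K°) ≤ C (1 + log N(K,L))²`

`⟨u, w⟩ ≤ r` for all `u ∈ K` says that `w` has norm `≤ r` in the norm with unit ball `K°`.
-/

open scoped Pointwise

namespace Vale.Agent.Lib.P126

variable {n : ℕ}

/-- `Y` is `s`-separated in the norm whose unit ball is `K°`. -/
def KSep (K : Set (EuclideanSpace ℝ (Fin n))) (s : ℝ)
    (Y : Finset (EuclideanSpace ℝ (Fin n))) : Prop :=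
  ∀ y ∈ Y, ∀ y' ∈ Y, y ≠ y' → ∃ u ∈ K, s < inner ℝ u (y - y')

/-- `Y` has diameter at most `r` in the norm whose unit ball is `K°`. -/
def KLoc (K : Set (EuclideanSpace ℝ (Fin n))) (r : ℝ)
    (Y : Finset (EuclideanSpace ℝ (Fin n))) : Prop :=
  ∀ y ∈ Y, ∀ y' ∈ Y, ∀ u ∈ K, inner ℝ u (y - y') ≤ r

/-- `X ⊆ K` is a net of `K`: every point of `K` is `x + l - l'` with `x ∈ X`, `l, l' ∈ L`. -/
def IsNet (K L : Set (EuclideanSpace ℝ (Fin n))) (X : Finset (EuclideanSpace ℝ (Fin n))) : Prop :=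
  (∀ x ∈ X, x ∈ K) ∧ ∀ y ∈ K, ∃ x ∈ X, ∃ l ∈ L, ∃ l' ∈ L, y = x + l - l'

/-- `U ⊆ K`, and distinct points of `U` are separated by `s/8` by a functional `ζ` which is
`≤ 2` on `L` and `≤ 4s` on `K`. -/
def QSep (K L : Set (EuclideanSpace ℝ (Fin n))) (s : ℝ)
    (U : Finset (EuclideanSpace ℝ (Fin n))) : Prop :=
  (∀ u ∈ U, u ∈ K) ∧ ∀ u ∈ U, ∀ u' ∈ U, u ≠ u' →
    ∃ ζ : EuclideanSpace ℝ (Fin n), (∀ l ∈ L, inner ℝ l ζ ≤ 2) ∧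
      (∀ κ ∈ K, inner ℝ κ ζ ≤ 4 * s) ∧ s / 8 ≤ inner ℝ (u - u') ζ

/-- `T ⊆ K`, and distinct points of `T` are separated by `r` by a functional which is `≤ 2`
on `L`. -/
def FSep (K L : Set (EuclideanSpace ℝ (Fin n))) (r : ℝ)
    (T : Finset (EuclideanSpace ℝ (Fin n))) : Prop :=
  (∀ t ∈ T, t ∈ K) ∧ ∀ t ∈ T, ∀ t' ∈ T, t ≠ t' →
    ∃ ζ : EuclideanSpace ℝ (Fin n), (∀ l ∈ L, inner ℝ l ζ ≤ 2) ∧ r ≤ inner ℝ (t - t') ζ

end Vale.Agent.Lib.P126
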