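import Vale.Agent.Lib.P126.Quad.Defs

open scoped Pointwise

namespace Vale.Agent.Lib.P126

variable {n : ℕ}

/-- LEAF Q3. `L°` has `K°`-diameter at most `2 N(K,L)` (use `inner_le_card_of_cover`), so a set
separated at a larger scale has at most one point. -/
theorem card_le_one_of_KSep_large {K L : Set (EuclideanSpace ℝ (Fin n))} (hK : IsSymmConvexBody K)
    (hL : IsSymmConvexBody L) {s : ℝ} (hs : 2 * (covNum K L : ℝ) ≤ s)
    (Y : Finset (EuclideanSpace ℝ (Fin n))) (hY : ∀ y ∈ Y, y ∈ polarBody L) (hsep : KSep K s Y) :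
    Y.card ≤ 1 := by
  obtain ⟨c, hc, hcov⟩ := exists_cover_card_eq
    (exists_finite_cover hK.isCompact.isBounded hL.interior_nonempty)
  rw [Finset.card_le_one]
  intro y hy y' hy'
  by_contra hne
  obtain ⟨u, hu, hlt⟩ := hsep y hy y' hy' hne
  have h1 : inner ℝ u y ≤ (c.card : ℝ) := inner_le_card_of_cover hK hL c hcov hu (hY y hy)
  have h2 : inner ℝ (-u) y' ≤ (c.card : ℝ) :=
    inner_le_card_of_cover hK hL c hcov (hK.neg_mem u hu) (hY y' hy')
  rw [inner_neg_left] at h2
  rw [inner_sub_right] at hlt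
  rw [hc] at h1 h2
  linarith

end Vale.Agent.Lib.P126
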