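import Vale.Agent.Lib.P126.Quad.Defs

open scoped Pointwise

namespace Vale.Agent.Lib.P126

variable {n : ℕ}

/-- LEAF Q4. Points of `K` which are `r`-separated (`r > 4`) by functionals `≤ 2` on `L` lie in
different translates of `L`. -/
theorem card_le_covNum_of_FSep {K L : Set (EuclideanSpace ℝ (Fin n))} (hK : IsSymmConvexBody K)
    (hL : IsSymmConvexBody L) {r : ℝ} (hr : 4 < r)
    (T : Finset (EuclideanSpace ℝ (Fin n))) (hT : FSep K L r T) :
    T.card ≤ covNum K L := by
  classical
  obtain ⟨s, hscard, hs⟩ := exists_cover_card_eq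
    (exists_finite_cover hK.isCompact.isBounded hL.interior_nonempty)
  have hcov : ∀ t ∈ T, ∃ x ∈ s, t ∈ x +ᵥ L := by
    intro t ht
    have := hs (hT.1 t ht)
    simp only [Set.mem_iUnion, exists_prop] at this
    exact this
  choose! c hc hcL using hcov
  rw [← hscard]
  refine Finset.card_le_card_of_injOn c (fun t ht => hc t ht) ?_
  intro t ht t' ht' hcc
  by_contra hne
  obtain ⟨ζ, hζ, hsep⟩ := hT.2 t ht t' ht' hne
  obtain ⟨l, hl, hlt⟩ := Set.mem_vadd_set.mp (hcL t ht)
  obtain ⟨l', hl', hlt'⟩ := Set.mem_vadd_set.mp (hcL t' ht')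
  have e : t - t' = l + -l' := by
    rw [← hlt, ← hlt', hcc]
    simp only [vadd_eq_add]
    abel
  have h1 := hζ l hl
  have h2 := hζ (-l') (hL.neg_mem l' hl')
  rw [e, inner_add_left] at hsep
  linarith

end Vale.Agent.Lib.P126
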