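import Vale.Agent.Lib.P126.Quad.Defs

open scoped Pointwise

namespace Vale.Agent.Lib.P126

variable {n : ℕ}

/-- LEAF Q9. Iterating an abstract greedy step: a convexly separated sequence `z 0, …, z (T-1)` in
`Z` with `|Z| ≤ T^k`. -/
theorem greedy_chain {K : Set (EuclideanSpace ℝ (Fin n))} {t : ℝ} {k : ℕ} (hk1 : 1 ≤ k)
    (Z : Finset (EuclideanSpace ℝ (Fin n)))
    (hstep : ∀ S : Finset (EuclideanSpace ℝ (Fin n)), S ⊆ Z → S.card ^ k < Z.card →
      ∃ z ∈ Z, ∀ p ∈ convexHull ℝ (S : Set (EuclideanSpace ℝ (Fin n))),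
        ∃ u ∈ K, t < inner ℝ u (z - p)) :
    ∃ (T : ℕ) (z : ℕ → EuclideanSpace ℝ (Fin n)), (∀ i < T, z i ∈ Z) ∧ Z.card ≤ T ^ k ∧
      ∀ j < T, ∀ p ∈ convexHull ℝ (z '' Set.Iio j), ∃ u ∈ K, t < inner ℝ u (z j - p) := by
  classical
  have key : ∀ T : ℕ, (∀ T' < T, T' ^ k < Z.card) →
      ∃ z : ℕ → EuclideanSpace ℝ (Fin n), (∀ i < T, z i ∈ Z) ∧
        ∀ j < T, ∀ p ∈ convexHull ℝ (z '' Set.Iio j), ∃ u ∈ K, t < inner ℝ u (z j - p) := by
    intro T
    induction T with
    | zero => intro _; exact ⟨fun _ => 0, by simp, by simp⟩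
    | succ T ih =>
      intro hT
      obtain ⟨z, hz1, hz2⟩ := ih (fun T' hT' => hT T' (by omega))
      set S : Finset (EuclideanSpace ℝ (Fin n)) := (Finset.range T).image z with hS
      have hSZ : S ⊆ Z := by
        intro x hx
        obtain ⟨i, hi, rfl⟩ := Finset.mem_image.1 hx
        exact hz1 i (Finset.mem_range.1 hi)
      have hcard : S.card ≤ T := by
        calc S.card ≤ (Finset.range T).card := Finset.card_image_le
          _ = T := Finset.card_range T
      have hlt : S.card ^ k < Z.card :=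
        lt_of_le_of_lt (Nat.pow_le_pow_left hcard k) (hT T (Nat.lt_succ_self T))
      obtain ⟨w, hwZ, hw⟩ := hstep S hSZ hlt
      have hScoe : (S : Set (EuclideanSpace ℝ (Fin n))) = z '' Set.Iio T := by
        ext x; simp [hS]
      have himg : ∀ j ≤ T, (Function.update z T w) '' Set.Iio j = z '' Set.Iio j := by
        intro j hj
        apply Set.image_congr
        intro i hi
        have hne : i ≠ T := by have := Set.mem_Iio.1 hi; omega
        simp [Function.update_of_ne hne]
      refine ⟨Function.update z T w, ?_, ?_⟩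
      · intro i hi
        by_cases h : i = T
        · subst h; simpa using hwZ
        · rw [Function.update_of_ne h]; exact hz1 i (by omega)
      · intro j hj p hp
        rw [himg j (by omega)] at hp
        by_cases h : j = T
        · subst h
          rw [Function.update_self]
          exact hw p (by rw [hScoe]; exact hp)
        · rw [Function.update_of_ne h]
          exact hz2 j (by omega) p hp
  have hex : ∃ T : ℕ, Z.card ≤ T ^ k := ⟨Z.card, Nat.le_self_pow (by omega) _⟩
  obtain ⟨z, hz1, hz2⟩ := key (Nat.find hex) (fun T' hT' => not_le.1 (Nat.find_min hex hT'))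
  exact ⟨Nat.find hex, z, hz1, Nat.find_spec hex, hz2⟩

end Vale.Agent.Lib.P126
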