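import Vale.Agent.Lib.P126.Quad.Maurey

open scoped Pointwise

namespace Vale.Agent.Lib.P126

variable {n : ℕ}

/-- LEAF Q8. Greedy step.  Call `z ∈ Z` killed if some `p ∈ conv S` has `⟨u, z - p⟩ ≤ s/4` for all
`u ∈ K`.  By `maurey` (`c = 4s`, `ε = s/8`) `p` is within `s/8` on the net `X`, hence within
`s/8 + 4 ≤ s/4` on `K`, of the average `q` of a `k`-tuple of `S` (`p, q ∈ L°`).  Two killed points
with the same tuple are within `s` of each other, so they coincide: at most `|S|^k` points are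
killed. -/
theorem greedy_step {K L : Set (EuclideanSpace ℝ (Fin n))} (hK : IsSymmConvexBody K)
    (hL : IsSymmConvexBody L) {X : Finset (EuclideanSpace ℝ (Fin n))} (hX : IsNet K L X)
    {m : ℕ} (hXm : X.card ≤ m) (hm : 1 ≤ m) {s : ℝ} (hs : 32 ≤ s) {k : ℕ} (hk1 : 1 ≤ k)
    (hk : 2048 * Real.log (2 * m) ≤ k)
    (Z : Finset (EuclideanSpace ℝ (Fin n))) (hZL : ∀ z ∈ Z, z ∈ polarBody L)
    (hsep : KSep K s Z) (hloc : KLoc K (4 * s) Z)
    (S : Finset (EuclideanSpace ℝ (Fin n))) (hS : S ⊆ Z) (hcard : S.card ^ k < Z.card) :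
    ∃ z ∈ Z, ∀ p ∈ convexHull ℝ (S : Set (EuclideanSpace ℝ (Fin n))),
      ∃ u ∈ K, s / 4 < inner ℝ u (z - p) := by
  classical
  by_contra hcon
  push Not at hcon
  have hs0 : (0 : ℝ) < s := by linarith
  have hkpos : (0 : ℝ) < k := by exact_mod_cast hk1
  have hSL : (S : Set (EuclideanSpace ℝ (Fin n))) ⊆ polarBody L := fun z hz => hZL z (hS hz)
  have hconv : convexHull ℝ (S : Set (EuclideanSpace ℝ (Fin n))) ⊆ polarBody L :=
    convexHull_min hSL hL.polarBody.convex
  have key : ∀ z ∈ Z, ∃ f ∈ Fintype.piFinset (fun _ : Fin k => S), ∀ u ∈ K,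
      inner ℝ u (z - (k : ℝ)⁻¹ • ∑ i, f i) ≤ s / 2 := by
    intro z hz
    obtain ⟨p, hp, hpz⟩ := hcon z hz
    obtain ⟨f, hfS, hf⟩ := maurey (X := X) (S := S) hXm hm (c := 4 * s) (ε := s / 8)
      (by linarith) (by linarith)
      (fun x hx a ha b hb => hloc a (hS ha) b (hS hb) x (hX.1 x hx)) hk1
      (by
        have h0 : 2 * (4 * s) ^ 2 * Real.log (2 * m)
            = (2048 * Real.log (2 * m)) * (s / 8) ^ 2 := by ring
        rw [h0]
        exact mul_le_mul_of_nonneg_right hk (by positivity)) hp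
    refine ⟨f, by simpa [Fintype.mem_piFinset] using hfS, ?_⟩
    set q := (k : ℝ)⁻¹ • ∑ i, f i with hq
    have hpL : p ∈ polarBody L := hconv hp
    have hqL : ∀ l ∈ L, inner ℝ l q ≤ 1 := by
      intro l hl
      rw [hq, inner_smul_right, inner_sum]
      have h0 : ∑ i, inner ℝ l (f i) ≤ ∑ _i : Fin k, (1 : ℝ) :=
        Finset.sum_le_sum (fun i _ => hSL (hfS i) l hl)
      simp only [Finset.sum_const, Finset.card_univ, Fintype.card_fin, nsmul_eq_mul,
        mul_one] at h0
      rw [inv_mul_le_iff₀ hkpos]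
      linarith
    intro u hu
    obtain ⟨x, hx, l, hl, l', hl', rfl⟩ := hX.2 u hu
    have h1 := hpz _ hu
    have h2 := (abs_le.mp (hf x hx)).2
    have h3 : inner ℝ l p ≤ 1 := hpL l hl
    have h4 : inner ℝ (-l) q ≤ 1 := hqL _ (hL.neg_mem l hl)
    have h5 : inner ℝ (-l') p ≤ 1 := hpL _ (hL.neg_mem l' hl')
    have h6 : inner ℝ l' q ≤ 1 := hqL l' hl'
    have e : inner ℝ (x + l - l') (z - q) = inner ℝ (x + l - l') (z - p) + inner ℝ x (p - q)
        + inner ℝ l p + inner ℝ (-l) q + inner ℝ (-l') p + inner ℝ l' q := by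
      simp only [inner_sub_left, inner_add_left, inner_sub_right, inner_neg_left]
      ring
    rw [e]
    linarith
  choose! g hg hgK using key
  have hinj : Set.InjOn g Z := by
    intro z hz z' hz' hzz
    by_contra hne
    obtain ⟨u, hu, hlt⟩ := hsep z hz z' hz' hne
    have h1 := hgK z hz u hu
    have h2 := hgK z' hz' (-u) (hK.neg_mem u hu)
    rw [← hzz] at h2
    have e : inner ℝ u (z - z') = inner ℝ u (z - (k : ℝ)⁻¹ • ∑ i, g z i)
        + inner ℝ (-u) (z' - (k : ℝ)⁻¹ • ∑ i, g z i) := by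
      simp only [inner_sub_right, inner_neg_left]
      ring
    rw [e] at hlt
    linarith
  have hle : Z.card ≤ (Fintype.piFinset (fun _ : Fin k => S)).card :=
    Finset.card_le_card_of_injOn g hg hinj
  rw [Fintype.card_piFinset_const] at hle
  omega

end Vale.Agent.Lib.P126
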