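import Vale.Agent.Lib.P126.Quad.Defs

open scoped Pointwise

namespace Vale.Agent.Lib.P126

variable {n : ℕ}

theorem exp_le_chord {c x : ℝ} (hc : 0 < c) (hx : |x| ≤ c) :
    Real.exp x ≤ Real.cosh c + (x / c) * Real.sinh c := by
  obtain ⟨h1, h2⟩ := abs_le.mp hx
  have ha : 0 ≤ (c + x) / (2 * c) := by
    apply div_nonneg <;> linarith
  have hb : 0 ≤ (c - x) / (2 * c) := by
    apply div_nonneg <;> linarith
  have hab : (c + x) / (2 * c) + (c - x) / (2 * c) = 1 := by
    field_simp
    ring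
  have key := convexOn_exp.2 (Set.mem_univ c) (Set.mem_univ (-c)) ha hb hab
  have e1 : ((c + x) / (2 * c)) • c + ((c - x) / (2 * c)) • (-c) = x := by
    simp only [smul_eq_mul]
    field_simp
    ring
  rw [e1] at key
  simp only [smul_eq_mul] at key
  rw [Real.cosh_eq, Real.sinh_eq]
  have e2 : (c + x) / (2 * c) * Real.exp c + (c - x) / (2 * c) * Real.exp (-c)
      = (Real.exp c + Real.exp (-c)) / 2 + x / c * ((Real.exp c - Real.exp (-c)) / 2) := by
    field_simp
    ring
  linarith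

/-- LEAF Q7a. Hoeffding-type one-step bound: a mean-zero weighted family with values in `[-c,c]`
has exponential moment at most `exp (c²/2)` (chord bound `exp x ≤ cosh c + (x/c) sinh c` on
`[-c,c]`, then `Real.cosh_le_exp_half_sq`). -/
theorem sum_mul_exp_le {ι : Type*} (S : Finset ι) (w g : ι → ℝ) {c : ℝ} (hc : 0 < c)
    (hw : ∀ i ∈ S, 0 ≤ w i) (hw1 : ∑ i ∈ S, w i = 1) (hg : ∀ i ∈ S, |g i| ≤ c)
    (hmean : ∑ i ∈ S, w i * g i = 0) :
    ∑ i ∈ S, w i * Real.exp (g i) ≤ Real.exp (c ^ 2 / 2) := by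
  have h1 : ∑ i ∈ S, w i * Real.exp (g i)
      ≤ ∑ i ∈ S, (w i * Real.cosh c + (w i * g i) * (Real.sinh c / c)) := by
    refine Finset.sum_le_sum (fun i hi => ?_)
    have := mul_le_mul_of_nonneg_left (exp_le_chord hc (hg i hi)) (hw i hi)
    have e : w i * (Real.cosh c + g i / c * Real.sinh c)
        = w i * Real.cosh c + (w i * g i) * (Real.sinh c / c) := by
      field_simp
    linarith
  rw [Finset.sum_add_distrib, ← Finset.sum_mul, ← Finset.sum_mul, hw1, hmean] at h1
  have h2 := Real.cosh_le_exp_half_sq c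
  linarith

end Vale.Agent.Lib.P126
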