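import Vale.Agent.Lib.P126.Quad.LocStep

open scoped Pointwise

namespace Vale.Agent.Lib.P126

variable {n : ℕ}

/-- LEAF Q6. Iterating `localize_step` over the scales `2^j a`, `j < J`. -/
theorem localize_chain {K : Set (EuclideanSpace ℝ (Fin n))} (hK : IsSymmConvexBody K) {a : ℝ} (ha : 0 ≤ a)
    (Y : Finset (EuclideanSpace ℝ (Fin n))) (hsep : KSep K a Y) (J : ℕ) :
    ∃ (Zs : ℕ → Finset (EuclideanSpace ℝ (Fin n))) (W : Finset (EuclideanSpace ℝ (Fin n))),
      (∀ j < J, Zs j ⊆ Y ∧ KSep K (2 ^ j * a) (Zs j) ∧ KLoc K (4 * (2 ^ j * a)) (Zs j)) ∧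
      W ⊆ Y ∧ KSep K (2 ^ J * a) W ∧ Y.card ≤ W.card * ∏ j ∈ Finset.range J, (Zs j).card := by
  induction J with
  | zero =>
    refine ⟨fun _ => ∅, Y, ?_, Finset.Subset.refl _, ?_, ?_⟩
    · intro j hj
      exact absurd hj (Nat.not_lt_zero _)
    · simpa using hsep
    · simp
  | succ J ih =>
    obtain ⟨Zs, W, hZ, hWY, hWsep, hcard⟩ := ih
    obtain ⟨W', hW'W, hW'sep, Z', hZ'W, hZ'loc, hc⟩ :=
      localize_step hK (s := 2 ^ J * a) (by positivity) W
    refine ⟨Function.update Zs J Z', W', ?_, hW'W.trans hWY, ?_, ?_⟩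
    · intro j hj
      rcases Nat.lt_succ_iff_lt_or_eq.mp hj with h | h
      · rw [Function.update_of_ne (ne_of_lt h)]
        exact hZ j h
      · subst h
        rw [Function.update_self]
        refine ⟨hZ'W.trans hWY, ?_, hZ'loc⟩
        intro y hy y' hy' hne
        exact hWsep y (hZ'W hy) y' (hZ'W hy') hne
    · have h2 : (2 : ℝ) ^ (J + 1) * a = 2 * (2 ^ J * a) := by ring
      rw [h2]
      exact hW'sep
    · rw [Finset.prod_range_succ, Function.update_self]
      have h3 : ∏ j ∈ Finset.range J, (Function.update Zs J Z' j).card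
          = ∏ j ∈ Finset.range J, (Zs j).card := by
        apply Finset.prod_congr rfl
        intro j hj
        rw [Function.update_of_ne (ne_of_lt (Finset.mem_range.mp hj))]
      rw [h3]
      calc Y.card ≤ W.card * ∏ j ∈ Finset.range J, (Zs j).card := hcard
        _ ≤ (W'.card * Z'.card) * ∏ j ∈ Finset.range J, (Zs j).card := Nat.mul_le_mul_right _ hc
        _ = W'.card * ((∏ j ∈ Finset.range J, (Zs j).card) * Z'.card) := by ring

end Vale.Agent.Lib.P126
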