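import Vale.Agent.Lib.P126.Quad.Defs

open scoped Pointwise

namespace Vale.Agent.Lib.P126

variable {n : ℕ}

/-- LEAF Q5. One localisation step: a maximal `2s`-separated subset `W` of `Z` and the largest
fibre `Z'` of a nearest-point map `Z → W`. -/
theorem localize_step {K : Set (EuclideanSpace ℝ (Fin n))} (hK : IsSymmConvexBody K) {s : ℝ} (hs : 0 ≤ s)
    (Z : Finset (EuclideanSpace ℝ (Fin n))) :
    ∃ W ⊆ Z, KSep K (2 * s) W ∧ ∃ Z' ⊆ Z, KLoc K (4 * s) Z' ∧ Z.card ≤ W.card * Z'.card := by
  classical
  have hne : (Z.powerset.filter (fun W => KSep K (2 * s) W)).Nonempty := by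
    refine ⟨∅, ?_⟩
    rw [Finset.mem_filter, Finset.mem_powerset]
    refine ⟨Finset.empty_subset _, ?_⟩
    intro y hy
    simp at hy
  obtain ⟨W, hWmem, hWmax⟩ := Finset.exists_max_image _ Finset.card hne
  rw [Finset.mem_filter, Finset.mem_powerset] at hWmem
  obtain ⟨hWZ, hWsep⟩ := hWmem
  have key : ∀ z ∈ Z, ∃ w ∈ W, ∀ u ∈ K, inner ℝ u (z - w) ≤ 2 * s := by
    intro z hz
    by_cases hzW : z ∈ W
    · refine ⟨z, hzW, fun u _ => ?_⟩
      rw [sub_self, inner_zero_right]
      linarith
    · by_contra hcon
      push Not at hcon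
      have hins : insert z W ∈ Z.powerset.filter (fun W => KSep K (2 * s) W) := by
        rw [Finset.mem_filter, Finset.mem_powerset]
        refine ⟨Finset.insert_subset hz hWZ, ?_⟩
        intro y hy y' hy' hne'
        rw [Finset.mem_insert] at hy hy'
        rcases hy with rfl | hy
        · rcases hy' with rfl | hy'
          · exact absurd rfl hne'
          · exact hcon y' hy'
        · rcases hy' with rfl | hy'
          · obtain ⟨u, hu, hlt⟩ := hcon y hy
            refine ⟨-u, hK.neg_mem u hu, ?_⟩
            have : inner ℝ (-u) (y - y') = inner ℝ u (y' - y) := by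
              rw [inner_neg_left, ← inner_neg_right, neg_sub]
            rw [this]
            exact hlt
          · exact hWsep y hy y' hy' hne'
      have h1 := hWmax _ hins
      rw [Finset.card_insert_of_notMem hzW] at h1
      omega
  choose! φ hφW hφ using key
  refine ⟨W, hWZ, hWsep, ?_⟩
  have hloc : ∀ w, KLoc K (4 * s) (Z.filter (fun z => φ z = w)) := by
    intro w z hz z' hz' u hu
    rw [Finset.mem_filter] at hz hz'
    have h1 := hφ z hz.1 u hu
    have h2 := hφ z' hz'.1 (-u) (hK.neg_mem u hu)
    rw [hz.2] at h1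
    rw [hz'.2] at h2
    have h3 : inner ℝ u (z - z') = inner ℝ u (z - w) + inner ℝ (-u) (z' - w) := by
      rw [inner_neg_left, ← inner_neg_right, ← inner_add_right]
      congr 1
      abel
    rw [h3]
    linarith
  rcases W.eq_empty_or_nonempty with hW0 | hWne
  · refine ⟨∅, Finset.empty_subset _, ?_, ?_⟩
    · intro y hy
      simp at hy
    · have : Z = ∅ := by
        rw [Finset.eq_empty_iff_forall_notMem]
        intro z hz
        have := hφW z hz
        rw [hW0] at this
        simp at this
      simp [this]
  · obtain ⟨w0, _, hw0max⟩ :=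
      Finset.exists_max_image W (fun w => (Z.filter (fun z => φ z = w)).card) hWne
    refine ⟨Z.filter (fun z => φ z = w0), Finset.filter_subset _ _, hloc w0, ?_⟩
    rw [mul_comm]
    exact Finset.card_le_mul_card_image_of_maps_to hφW _ hw0max

end Vale.Agent.Lib.P126
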