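import Vale.Agent.Lib.P126.Quad.Defs

open scoped Pointwise

namespace Vale.Agent.Lib.P126

variable {n : ℕ}

/-- LEAF Q10. Hahn–Banach/minimax.  `C = conv S` is compact convex, `D = {w | ∀ u ∈ K, ⟨u,z-w⟩ ≤ t}`
is closed convex, and they are disjoint.  Separate them strictly by `g`
(`geometric_hahn_banach_compact_closed`, functional `= ⟨g,·⟩`): `⟨g,a⟩ < v < ⟨g,b⟩` for `a ∈ C`,
`b ∈ D`.  With `b = z - t κ`, `κ ∈ K°`: `t⟨g,κ⟩ < γ := ⟨g,z⟩ - v`, `γ > 0`, so `(t/γ) g ∈ K°° = K`
(`IsSymmConvexBody.polarBody_polarBody`), and `⟨(t/γ) g, z - a⟩ > t` on `C`.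
(For `S = ∅` take `u = 0`.) -/
theorem minimax {K : Set (EuclideanSpace ℝ (Fin n))} (hK : IsSymmConvexBody K) {t : ℝ}
    (ht : 0 < t) (z : EuclideanSpace ℝ (Fin n)) (S : Set (EuclideanSpace ℝ (Fin n)))
    (hS : S.Finite)
    (h : ∀ p ∈ convexHull ℝ S, ∃ u ∈ K, t < inner ℝ u (z - p)) :
    ∃ u ∈ K, ∀ w ∈ S, t ≤ inner ℝ u (z - w) := by
  set D : Set (EuclideanSpace ℝ (Fin n)) := {w | ∀ u ∈ K, inner ℝ u (z - w) ≤ t} with hD
  have hDclosed : IsClosed D := by
    have : D = ⋂ u ∈ K, {w : EuclideanSpace ℝ (Fin n) | inner ℝ u (z - w) ≤ t} := by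
      ext w
      simp only [hD, Set.mem_ofPred_eq, Set.mem_iInter]
    rw [this]
    apply isClosed_biInter
    intro u _
    exact isClosed_le (by fun_prop) continuous_const
  have hDconv : Convex ℝ D := by
    intro x hx y hy α β hα hβ hαβ u hu
    have h1 := hx u hu
    have h2 := hy u hu
    have e : z - (α • x + β • y) = α • (z - x) + β • (z - y) := by
      have : z = α • z + β • z := by rw [← add_smul, hαβ, one_smul]
      calc z - (α • x + β • y) = (α • z + β • z) - (α • x + β • y) := by rw [← this]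
        _ = α • (z - x) + β • (z - y) := by
          rw [smul_sub, smul_sub]; abel
    rw [e, inner_add_right, real_inner_smul_right, real_inner_smul_right]
    calc α * inner ℝ u (z - x) + β * inner ℝ u (z - y) ≤ α * t + β * t := by gcongr
      _ = t := by rw [← add_mul, hαβ, one_mul]
  have hdisj : Disjoint (convexHull ℝ S) D := by
    rw [Set.disjoint_left]
    intro p hp hpD
    obtain ⟨u, hu, hlt⟩ := h p hp
    exact absurd (hpD u hu) (not_le.2 hlt)
  obtain ⟨f, u₀, v₀, hfa, huv, hfb⟩ :=
    geometric_hahn_banach_compact_closed (convex_convexHull ℝ S) (hS.isCompact_convexHull ℝ)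
      hDconv hDclosed hdisj
  have hzD : z ∈ D := by
    intro u _
    simp only [sub_self, inner_zero_right]
    exact ht.le
  have hγ : 0 < f z - v₀ := by
    have := hfb z hzD
    linarith
  set γ : ℝ := f z - v₀ with hγdef
  set g : EuclideanSpace ℝ (Fin n) :=
    (InnerProductSpace.toDual ℝ (EuclideanSpace ℝ (Fin n))).symm f with hg
  have hgin : ∀ x, inner ℝ g x = f x := by
    intro x
    rw [hg, InnerProductSpace.toDual_symm_apply]
  have hκ : ∀ κ ∈ polarBody K, t * f κ < γ := by
    intro κ hκ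
    have hb : z - t • κ ∈ D := by
      intro u hu
      have e : z - (z - t • κ) = t • κ := by abel
      rw [e, real_inner_smul_right]
      have := hκ u hu
      calc t * inner ℝ u κ ≤ t * 1 := by gcongr
        _ = t := mul_one t
    have := hfb _ hb
    rw [map_sub, map_smul, smul_eq_mul] at this
    rw [hγdef]
    linarith
  refine ⟨(t / γ) • g, ?_, ?_⟩
  · rw [← hK.polarBody_polarBody]
    intro κ hκK
    rw [real_inner_smul_right, real_inner_comm, hgin]
    have := hκ κ hκK
    rw [div_mul_eq_mul_div, div_le_one hγ]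
    exact this.le
  · intro w hw
    have h1 := hfa w (subset_convexHull ℝ S hw)
    rw [real_inner_smul_left, hgin, map_sub, div_mul_eq_mul_div, le_div_iff₀ hγ]
    apply mul_le_mul_of_nonneg_left _ ht.le
    rw [hγdef]
    linarith

end Vale.Agent.Lib.P126
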