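import Vale.Agent.Lib.P126.Quad.Defs

open scoped Pointwise

namespace Vale.Agent.Lib.P126

variable {n : ℕ}

/-- LEAF Q2. A net of `K` inside `K` with at most `N(K,L)` points (as in `covNum_polar_le_quasi`:
keep the translates meeting `K` and pick a point of `K` in each). -/
theorem exists_isNet {K L : Set (EuclideanSpace ℝ (Fin n))} (hK : IsSymmConvexBody K)
    (hL : IsSymmConvexBody L) :
    ∃ X : Finset (EuclideanSpace ℝ (Fin n)), IsNet K L X ∧ X.card ≤ covNum K L := by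
  classical
  obtain ⟨s, hscard, hs⟩ := exists_cover_card_eq
    (exists_finite_cover hK.isCompact.isBounded hL.interior_nonempty)
  set s' : Finset (EuclideanSpace ℝ (Fin n)) := s.filter (fun x => ((x +ᵥ L) ∩ K).Nonempty)
    with hs'
  have hs'cov : ∀ y ∈ K, ∃ x ∈ s', y ∈ x +ᵥ L := by
    intro y hy
    have := hs hy
    simp only [Set.mem_iUnion, exists_prop] at this
    obtain ⟨x, hx, hyx⟩ := this
    exact ⟨x, Finset.mem_filter.2 ⟨hx, ⟨y, hyx, hy⟩⟩, hyx⟩
  have hs'card : s'.card ≤ covNum K L := by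
    rw [← hscard]; exact Finset.card_filter_le _ _
  have hk : ∀ x : {x // x ∈ s'}, ∃ y, y ∈ (x : EuclideanSpace ℝ (Fin n)) +ᵥ L ∧ y ∈ K := by
    intro x
    obtain ⟨-, y, hyx, hyK⟩ := Finset.mem_filter.1 x.2
    exact ⟨y, hyx, hyK⟩
  choose kpt hkL hkK using hk
  refine ⟨s'.attach.image kpt, ⟨?_, ?_⟩, ?_⟩
  · intro x hx
    obtain ⟨x0, -, rfl⟩ := Finset.mem_image.1 hx
    exact hkK x0
  · intro y hy
    obtain ⟨x0, hx0, hyx⟩ := hs'cov y hy
    obtain ⟨l, hl, hyl⟩ := Set.mem_vadd_set.1 hyx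
    obtain ⟨l2, hl2, hkl⟩ := Set.mem_vadd_set.1 (hkL ⟨x0, hx0⟩)
    refine ⟨kpt ⟨x0, hx0⟩, Finset.mem_image.2 ⟨⟨x0, hx0⟩, Finset.mem_attach _ _, rfl⟩,
      l, hl, l2, hl2, ?_⟩
    rw [← hyl, ← hkl]
    simp only [vadd_eq_add]
    abel
  · calc (s'.attach.image kpt).card ≤ s'.attach.card := Finset.card_image_le
      _ = s'.card := Finset.card_attach
      _ ≤ covNum K L := hs'card

end Vale.Agent.Lib.P126
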