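import Vale.Agent.Lib.P126.Quad.Defs

open scoped Pointwise

namespace Vale.Agent.Lib.P126

variable {n : ℕ}

/-- Pigeonhole: a map from `range T` to the 65 integers of `[-32,32]` has a fibre `I` with
`T ≤ 65 * card I`. -/
theorem pigeon_fiber (T : ℕ) (cell : ℕ → ℤ)
    (hcell : ∀ j ∈ Finset.range T, cell j ∈ Finset.Icc (-32 : ℤ) 32) :
    ∃ c : ℤ, T ≤ 65 * ((Finset.range T).filter (fun j => cell j = c)).card := by
  by_contra hcon
  push Not at hcon
  have hsum := Finset.card_eq_sum_card_fiberwise (f := cell) (s := Finset.range T)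
    (t := Finset.Icc (-32 : ℤ) 32) hcell
  rw [Finset.card_range] at hsum
  have hcard : (Finset.Icc (-32 : ℤ) 32).card = 65 := by simp
  have hne : (Finset.Icc (-32 : ℤ) 32).Nonempty := ⟨0, by simp⟩
  have hlt : ∑ c ∈ Finset.Icc (-32 : ℤ) 32,
      65 * ((Finset.range T).filter (fun j => cell j = c)).card
      < ∑ _c ∈ Finset.Icc (-32 : ℤ) 32, T :=
    Finset.sum_lt_sum_of_nonempty hne (fun c _ => hcon c)
  rw [← Finset.mul_sum, ← hsum, Finset.sum_const, hcard, smul_eq_mul] at hlt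
  exact lt_irrefl _ hlt

/-- LEAF Q11. Pigeonhole on the diagonal.  `d j = ⟨u j, z j - z 0⟩ ∈ [-4s,4s]`; the cell
`⌊d j/(s/8)⌋ ∈ [-32,32]` takes at most 65 values, so some cell contains a set `I` of at least
`T/65` indices.  For `i < j` in `I`: `⟨u j, z i - z 0⟩ ≤ d j - s/4 < d i - s/8`, so
`⟨u i - u j, z i - z 0⟩ > s/8`; the functional `ζ = ±(z i - z 0)` is `≤ 2` on `L` and `≤ 4s`
on `K`.  `U = image u I`. -/
theorem pigeon {K L : Set (EuclideanSpace ℝ (Fin n))} (hK : IsSymmConvexBody K)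
    (hL : IsSymmConvexBody L) {s : ℝ} (hs : 0 < s)
    (Z : Finset (EuclideanSpace ℝ (Fin n))) (hZL : ∀ z ∈ Z, z ∈ polarBody L)
    (hloc : KLoc K (4 * s) Z) (T : ℕ) (z u : ℕ → EuclideanSpace ℝ (Fin n))
    (hz : ∀ i < T, z i ∈ Z) (hu : ∀ i < T, u i ∈ K)
    (h : ∀ j < T, ∀ i < j, s / 4 ≤ inner ℝ (u j) (z j - z i)) :
    ∃ U : Finset (EuclideanSpace ℝ (Fin n)), QSep K L s U ∧ T ≤ 65 * U.card := by
  rcases Nat.eq_zero_or_pos T with hT0 | hT
  · refine ⟨∅, ⟨by simp, by simp⟩, by simp [hT0]⟩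
  have hz0 : z 0 ∈ Z := hz 0 hT
  set d : ℕ → ℝ := fun j => inner ℝ (u j) (z j - z 0) with hd
  have hs8 : 0 < s / 8 := by linarith
  have hdu : ∀ j < T, d j ≤ 4 * s := fun j hj => hloc (z j) (hz j hj) (z 0) hz0 (u j) (hu j hj)
  have hdl : ∀ j < T, -(4 * s) ≤ d j := by
    intro j hj
    have := hloc (z j) (hz j hj) (z 0) hz0 (-(u j)) (hK.neg_mem _ (hu j hj))
    rw [inner_neg_left] at this
    linarith
  set cell : ℕ → ℤ := fun j => ⌊d j / (s / 8)⌋ with hcelldef
  have hcell : ∀ j ∈ Finset.range T, cell j ∈ Finset.Icc (-32 : ℤ) 32 := by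
    intro j hj
    have hj' : j < T := Finset.mem_range.mp hj
    rw [Finset.mem_Icc]
    constructor
    · rw [hcelldef]
      apply Int.le_floor.mpr
      rw [le_div_iff₀ hs8]
      have := hdl j hj'
      push_cast
      linarith
    · rw [hcelldef]
      have h1 : d j / (s / 8) ≤ 32 := by
        rw [div_le_iff₀ hs8]
        have := hdu j hj'
        linarith
      have h2 : (⌊d j / (s / 8)⌋ : ℝ) ≤ 32 := le_trans (Int.floor_le _) h1
      exact_mod_cast h2
  obtain ⟨c, hc⟩ := pigeon_fiber T cell hcell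
  set I := (Finset.range T).filter (fun j => cell j = c) with hI
  have hIT : ∀ i ∈ I, i < T := fun i hi => Finset.mem_range.mp (Finset.mem_filter.mp hi).1
  have hIc : ∀ i ∈ I, cell i = c := fun i hi => (Finset.mem_filter.mp hi).2
  -- cells: d i and d j within s/8
  have hclose : ∀ i ∈ I, ∀ j ∈ I, d j < d i + s / 8 := by
    intro i hi j hj
    have hi1 : (c : ℝ) ≤ d i / (s / 8) := by
      rw [← hIc i hi]; exact Int.floor_le _
    have hj1 : d j / (s / 8) < (c : ℝ) + 1 := by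
      rw [← hIc j hj]; exact Int.lt_floor_add_one _
    rw [le_div_iff₀ hs8] at hi1
    rw [div_lt_iff₀ hs8] at hj1
    nlinarith
  have key : ∀ i ∈ I, ∀ j ∈ I, i < j → s / 8 < inner ℝ (u i - u j) (z i - z 0) := by
    intro i hi j hj hij
    have h1 := h j (hIT j hj) i hij
    have h2 := hclose i hi j hj
    have h3 : inner ℝ (u j) (z i - z 0) = d j - inner ℝ (u j) (z j - z i) := by
      rw [hd]
      simp only [inner_sub_right]
      ring
    rw [inner_sub_left, h3]
    have h4 : inner ℝ (u i) (z i - z 0) = d i := rfl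
    rw [h4]
    linarith
  have hinj : Set.InjOn u (I : Set ℕ) := by
    intro i hi j hj hij
    by_contra hne
    rcases lt_or_gt_of_ne hne with hlt | hlt
    · have := key i hi j hj hlt
      rw [hij, sub_self, inner_zero_left] at this
      linarith
    · have := key j hj i hi hlt
      rw [hij, sub_self, inner_zero_left] at this
      linarith
  have hLz : ∀ a ∈ Z, ∀ b ∈ Z, ∀ l ∈ L, inner ℝ l (a - b) ≤ 2 := by
    intro a ha b hb l hl
    have h1 : inner ℝ l a ≤ 1 := hZL a ha l hl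
    have h2 : inner ℝ (-l) b ≤ 1 := hZL b hb (-l) (hL.neg_mem l hl)
    rw [inner_neg_left] at h2
    rw [inner_sub_right]
    linarith
  refine ⟨I.image u, ⟨?_, ?_⟩, ?_⟩
  · intro a ha
    obtain ⟨i, hi, rfl⟩ := Finset.mem_image.mp ha
    exact hu i (hIT i hi)
  · intro a ha b hb hab
    obtain ⟨i, hi, rfl⟩ := Finset.mem_image.mp ha
    obtain ⟨j, hj, rfl⟩ := Finset.mem_image.mp hb
    have hne : i ≠ j := fun e => hab (by rw [e])
    rcases lt_or_gt_of_ne hne with hlt | hlt
    · refine ⟨z i - z 0, hLz _ (hz i (hIT i hi)) _ hz0, ?_, (key i hi j hj hlt).le⟩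
      intro κ hκ
      exact hloc _ (hz i (hIT i hi)) _ hz0 κ hκ
    · refine ⟨z 0 - z j, hLz _ hz0 _ (hz j (hIT j hj)), ?_, ?_⟩
      · intro κ hκ
        exact hloc _ hz0 _ (hz j (hIT j hj)) κ hκ
      · have h1 := key j hj i hi hlt
        have h2 : inner ℝ (u i - u j) (z 0 - z j) = inner ℝ (u j - u i) (z j - z 0) := by
          simp only [inner_sub_left, inner_sub_right]
          ring
        rw [h2]
        exact h1.le
  · rw [Finset.card_image_of_injOn hinj]
    exact hc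

end Vale.Agent.Lib.P126
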