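import Mathlib

namespace Vale.Agent.Lib.P126

/-- LEAF Q14. Splitting a product over `range (7N)` into residue classes mod 7 (induction on `N`;
`7 * (N+1) = 7 * N + 7`, `Finset.prod_range_succ` seven times on the left and once in each factor
on the right). -/
theorem prod_range_seven_mul (f : ℕ → ℕ) (N : ℕ) :
    ∏ j ∈ Finset.range (7 * N), f j
      = ∏ r ∈ Finset.range 7, ∏ i ∈ Finset.range N, f (r + 7 * i) := by
  induction N with
  | zero => simp
  | succ N ih =>
    have h : 7 * (N + 1) = 7 * N + 1 + 1 + 1 + 1 + 1 + 1 + 1 := by ring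
    rw [h]
    simp only [Finset.prod_range_succ, ih]
    simp only [Finset.range_zero, Finset.prod_empty, one_mul, zero_add]
    have e1 : 7 * N + 1 = 1 + 7 * N := by ring
    have e2 : 7 * N + 1 + 1 = 2 + 7 * N := by ring
    have e3 : 7 * N + 1 + 1 + 1 = 3 + 7 * N := by ring
    have e4 : 7 * N + 1 + 1 + 1 + 1 = 4 + 7 * N := by ring
    have e5 : 7 * N + 1 + 1 + 1 + 1 + 1 = 5 + 7 * N := by ring
    have e6 : 7 * N + 1 + 1 + 1 + 1 + 1 + 1 = 6 + 7 * N := by ring
    rw [e6, e5, e4, e3, e2, e1]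
    ring

end Vale.Agent.Lib.P126
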