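import Vale.Agent.Lib.P126.Quad.TreeStep
import Vale.Agent.Lib.P126.Quasi

open scoped Pointwise

namespace Vale.Agent.Lib.P126

variable {n : ℕ}

/-- LEAF Q13. Iterating `tree_step` over the scales `128^i s`, `i < N` (induction on `N`, peeling off
`i = 0`: apply the induction hypothesis to `128 s` and `fun i => U (i+1)`;
`Finset.prod_range_succ'`; base case `T = {0}`). -/
theorem tree_chain {K L : Set (EuclideanSpace ℝ (Fin n))} (hK : IsSymmConvexBody K) (N : ℕ) :
    ∀ s : ℝ, 0 < s → ∀ U : ℕ → Finset (EuclideanSpace ℝ (Fin n)),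
      (∀ i < N, QSep K L (128 ^ i * s) (U i)) →
      ∃ T : Finset (EuclideanSpace ℝ (Fin n)), FSep K L (s / 17) T ∧
        T.card = ∏ i ∈ Finset.range N, (U i).card := by
  induction N with
  | zero =>
    intro s _ U _
    refine ⟨{0}, ⟨?_, ?_⟩, by simp⟩
    · intro t ht
      rw [Finset.mem_singleton] at ht
      rw [ht]
      exact hK.zero_mem
    · intro t ht t' ht' hne
      rw [Finset.mem_singleton] at ht ht'
      exact absurd (ht.trans ht'.symm) hne
  | succ N ih =>
    intro s hs U hU
    obtain ⟨T, hT, hcard⟩ := ih (128 * s) (by positivity) (fun i => U (i + 1)) (by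
      intro i hi
      have h := hU (i + 1) (by omega)
      have e : (128 : ℝ) ^ (i + 1) * s = 128 ^ i * (128 * s) := by ring
      rw [e] at h
      exact h)
    have hU0 : QSep K L s (U 0) := by
      have h := hU 0 (by omega)
      simpa using h
    obtain ⟨T', hT', hcard'⟩ := tree_step hK hs (U 0) T hU0 hT
    refine ⟨T', hT', ?_⟩
    rw [hcard', hcard, Finset.prod_range_succ', mul_comm]

end Vale.Agent.Lib.P126
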