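import Vale.Agent.Lib.P126.Quad.SepBound
import Vale.Agent.Lib.P126.Quad.NetExists
import Vale.Agent.Lib.P126.Quad.Diam
import Vale.Agent.Lib.P126.Quad.FSepCard
import Vale.Agent.Lib.P126.Quad.LocChain
import Vale.Agent.Lib.P126.Quad.GreedyStep
import Vale.Agent.Lib.P126.Quad.GreedyChain
import Vale.Agent.Lib.P126.Quad.Minimax
import Vale.Agent.Lib.P126.Quad.Pigeon
import Vale.Agent.Lib.P126.Quad.TreeChain
import Vale.Agent.Lib.P126.Quad.SplitProd
import Vale.Agent.Lib.P126.Quad.Numeric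

/-!
# P126: `log N(L°, 70 K°) ≤ 70000 (1 + log N(K,L))²`
-/

open scoped Pointwise

namespace Vale.Agent.Lib.P126

variable {n : ℕ}

/-- A local (`s`-separated, diameter `≤ 4s`) subset `Z` of `L°` produces a family `U ⊆ K`,
separated at scale `s` by functionals bounded on `L` and on `K`, with `|Z| ≤ (65 |U|)^k`. -/
theorem local_bound {K L : Set (EuclideanSpace ℝ (Fin n))} (hK : IsSymmConvexBody K)
    (hL : IsSymmConvexBody L) {X : Finset (EuclideanSpace ℝ (Fin n))} (hX : IsNet K L X)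
    {m : ℕ} (hXm : X.card ≤ m) (hm : 1 ≤ m) {s : ℝ} (hs : 32 ≤ s) {k : ℕ} (hk1 : 1 ≤ k)
    (hk : 2048 * Real.log (2 * m) ≤ k)
    (Z : Finset (EuclideanSpace ℝ (Fin n))) (hZL : ∀ z ∈ Z, z ∈ polarBody L)
    (hsep : KSep K s Z) (hloc : KLoc K (4 * s) Z) :
    ∃ U : Finset (EuclideanSpace ℝ (Fin n)), QSep K L s U ∧ Z.card ≤ (65 * U.card) ^ k := by
  obtain ⟨T, z, hzZ, hcard, hconv⟩ := greedy_chain (K := K) (t := s / 4) hk1 Z
    (fun S hS hc => greedy_step hK hL hX hXm hm hs hk1 hk Z hZL hsep hloc S hS hc)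
  have hu : ∀ j, ∃ u : EuclideanSpace ℝ (Fin n), j < T →
      (u ∈ K ∧ ∀ w ∈ z '' Set.Iio j, s / 4 ≤ inner ℝ u (z j - w)) := by
    intro j
    by_cases hj : j < T
    · obtain ⟨u, huK, hu⟩ := minimax hK (by linarith : 0 < s / 4) (z j) (z '' Set.Iio j)
        ((Set.finite_Iio j).image z) (hconv j hj)
      exact ⟨u, fun _ => ⟨huK, hu⟩⟩
    · exact ⟨0, fun h => absurd h hj⟩
  choose u hu using hu
  obtain ⟨U, hU, hTU⟩ := pigeon hK hL (by linarith : 0 < s) Z hZL hloc T z u hzZ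
    (fun i hi => (hu i hi).1) (fun j hj i hij => (hu j hj).2 (z i) ⟨i, hij, rfl⟩)
  exact ⟨U, hU, hcard.trans (Nat.pow_le_pow_left hTU k)⟩

theorem one_le_covNum {K L : Set (EuclideanSpace ℝ (Fin n))} (hK : IsSymmConvexBody K)
    (hL : IsSymmConvexBody L) : 1 ≤ covNum K L := by
  obtain ⟨s, hscard, hs⟩ := exists_cover_card_eq
    (exists_finite_cover hK.isCompact.isBounded hL.interior_nonempty)
  have h0 := hs hK.zero_mem
  simp only [Set.mem_iUnion, exists_prop] at h0
  obtain ⟨x, hx, -⟩ := h0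
  rw [← hscard]
  exact Finset.card_pos.2 ⟨x, hx⟩

/-- Every `70`-separated finite subset of `L°` is small. -/
theorem card_le_of_KSep {K L : Set (EuclideanSpace ℝ (Fin n))} (hK : IsSymmConvexBody K)
    (hL : IsSymmConvexBody L) (Y : Finset (EuclideanSpace ℝ (Fin n)))
    (hY : ∀ y ∈ Y, y ∈ polarBody L) (hsep : KSep K 70 Y) :
    Y.card ≤ (65 ^ (7 * Nat.clog 128 (covNum K L)) * covNum K L ^ 7) ^
      ⌈2048 * Real.log (2 * (covNum K L : ℝ))⌉₊ := by
  classical
  have hm : 1 ≤ covNum K L := one_le_covNum hK hL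
  set m := covNum K L with hmdef
  have hmR : (1 : ℝ) ≤ m := by exact_mod_cast hm
  obtain ⟨X, hX, hXm⟩ := exists_isNet hK hL
  set k := ⌈2048 * Real.log (2 * (m : ℝ))⌉₊ with hkdef
  have hk : 2048 * Real.log (2 * (m : ℝ)) ≤ k := Nat.le_ceil _
  have hlogpos : 0 < Real.log (2 * (m : ℝ)) := Real.log_pos (by linarith)
  have hk1 : 1 ≤ k := Nat.one_le_iff_ne_zero.2 (Nat.ceil_pos.2 (by positivity)).ne'
  set N := Nat.clog 128 m with hNdef
  obtain ⟨Zs, W, hZs, hWY, hWsep, hcard⟩ :=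
    localize_chain hK (by norm_num : (0 : ℝ) ≤ 70) Y hsep (7 * N)
  have hpow : m ≤ 2 ^ (7 * N) := by
    rw [pow_mul]
    exact Nat.le_pow_clog (by norm_num) m
  have hpowR : (m : ℝ) ≤ 2 ^ (7 * N) := by exact_mod_cast hpow
  have hW1 : W.card ≤ 1 :=
    card_le_one_of_KSep_large hK hL (s := 2 ^ (7 * N) * 70) (by rw [← hmdef]; linarith) W
      (fun y hy => hY y (hWY hy)) hWsep
  have hU : ∀ j, ∃ U : Finset (EuclideanSpace ℝ (Fin n)), j < 7 * N →
      (QSep K L (2 ^ j * 70) U ∧ (Zs j).card ≤ (65 * U.card) ^ k) := by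
    intro j
    by_cases hj : j < 7 * N
    · obtain ⟨h1, h2, h3⟩ := hZs j hj
      have h2j : (1 : ℝ) ≤ 2 ^ j := one_le_pow₀ (by norm_num)
      obtain ⟨U, hU1, hU2⟩ := local_bound hK hL hX hXm hm (s := 2 ^ j * 70) (by linarith) hk1 hk
        (Zs j) (fun z hz => hY z (h1 hz)) h2 h3
      exact ⟨U, fun _ => ⟨hU1, hU2⟩⟩
    · exact ⟨∅, fun h => absurd h hj⟩
  choose U hU using hU
  have hprodU : ∏ j ∈ Finset.range (7 * N), (U j).card ≤ m ^ 7 := by
    rw [prod_range_seven_mul]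
    calc ∏ r ∈ Finset.range 7, ∏ i ∈ Finset.range N, (U (r + 7 * i)).card
        ≤ ∏ _r ∈ Finset.range 7, m := by
          apply Finset.prod_le_prod'
          intro r hr
          have hr7 : r < 7 := Finset.mem_range.1 hr
          have h2r : (1 : ℝ) ≤ 2 ^ r := one_le_pow₀ (by norm_num)
          obtain ⟨T, hT, hTc⟩ := tree_chain (L := L) hK N (2 ^ r * 70) (by positivity)
            (fun i => U (r + 7 * i)) (fun i hi => by
              have hlt : r + 7 * i < 7 * N := by omega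
              have := (hU (r + 7 * i) hlt).1
              have he : (2 : ℝ) ^ (r + 7 * i) * 70 = 128 ^ i * (2 ^ r * 70) := by
                rw [pow_add, pow_mul]; norm_num; ring
              rwa [he] at this)
          rw [← hTc]
          exact card_le_covNum_of_FSep hK hL (r := 2 ^ r * 70 / 17) (by linarith) T hT
      _ = m ^ 7 := by simp
  calc Y.card ≤ W.card * ∏ j ∈ Finset.range (7 * N), (Zs j).card := hcard
    _ ≤ 1 * ∏ j ∈ Finset.range (7 * N), (65 * (U j).card) ^ k := by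
        apply Nat.mul_le_mul hW1
        apply Finset.prod_le_prod'
        intro j hj
        exact (hU j (Finset.mem_range.1 hj)).2
    _ = (65 ^ (7 * N) * ∏ j ∈ Finset.range (7 * N), (U j).card) ^ k := by
        rw [one_mul, Finset.prod_pow, Finset.prod_mul_distrib]
        simp
    _ ≤ (65 ^ (7 * N) * m ^ 7) ^ k := by
        apply Nat.pow_le_pow_left
        exact Nat.mul_le_mul_left _ hprodU

/-- **Quadratic duality, explicit form.** -/
theorem covNum_polar_le_quad {K L : Set (EuclideanSpace ℝ (Fin n))} (hK : IsSymmConvexBody K)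
    (hL : IsSymmConvexBody L) :
    covNum (polarBody L) ((70 : ℝ) • polarBody K)
      ≤ (65 ^ (7 * Nat.clog 128 (covNum K L)) * covNum K L ^ 7) ^
        ⌈2048 * Real.log (2 * (covNum K L : ℝ))⌉₊ :=
  covNum_polar_le_of_sep_bound hK (by norm_num) _ (fun Y hY hsep => card_le_of_KSep hK hL Y hY hsep)

/-- **Quadratic duality, both inequalities**, at the absolute scale `70`. -/
theorem log_covNum_quad_two_sided {K L : Set (EuclideanSpace ℝ (Fin n))} (hK : IsSymmConvexBody K)
    (hL : IsSymmConvexBody L) :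
    Real.log (covNum (polarBody L) ((70 : ℝ) • polarBody K))
        ≤ 70000 * (1 + Real.log (covNum K L)) ^ 2 ∧
      Real.log (covNum K L)
        ≤ 70000 * (1 + Real.log (covNum (polarBody L) ((70 : ℝ)⁻¹ • polarBody K))) ^ 2 := by
  refine ⟨log_le_of_le_quad _ _ (one_le_covNum hK hL) (covNum_polar_le_quad hK hL), ?_⟩
  have h70 : (0 : ℝ) < 70 := by norm_num
  have hK1 : IsSymmConvexBody (polarBody L) := hL.polarBody
  have hL1 : IsSymmConvexBody ((70 : ℝ)⁻¹ • polarBody K) := hK.polarBody.smul (inv_pos.2 h70)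
  have key := covNum_polar_le_quad hK1 hL1
  rw [polarBody_smul _ (inv_pos.2 h70), inv_inv, hK.polarBody_polarBody, hL.polarBody_polarBody,
    covNum_smul_smul _ _ h70] at key
  exact log_le_of_le_quad _ _ (one_le_covNum hK1 hL1) key

end Vale.Agent.Lib.P126
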