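import Vale.Agent.Lib.P126.Quad.Hoeffding

open scoped Pointwise

namespace Vale.Agent.Lib.P126

variable {n : ℕ}

/-- LEAF Q7b. **Maurey's empirical lemma in `ℓ_∞^m`** (potential-function proof).
With `D_t = ∑_{i<t} (f i - p)` and
`Φ_t = ∑_{x ∈ X} (exp (θ⟨x,D_t⟩) + exp (-θ⟨x,D_t⟩))`, `θ = ε/c²`, `sum_mul_exp_le` gives a choice
of `f t ∈ S` with `Φ_{t+1} ≤ exp (θ²c²/2) Φ_t`; so `Φ_k ≤ 2m exp (kθ²c²/2)` and
`θ |⟨x,D_k⟩| ≤ log (2m) + kθ²c²/2`, i.e. `|⟨x,D_k⟩|/k ≤ c² log(2m)/(εk) + ε/2 ≤ ε`. -/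
theorem maurey {X S : Finset (EuclideanSpace ℝ (Fin n))} {m : ℕ} (hX : X.card ≤ m) (hm : 1 ≤ m)
    {c ε : ℝ} (hc : 0 < c) (hε : 0 < ε)
    (hrange : ∀ x ∈ X, ∀ z ∈ S, ∀ z' ∈ S, inner ℝ x (z - z') ≤ c)
    {k : ℕ} (hk1 : 1 ≤ k) (hk : 2 * c ^ 2 * Real.log (2 * m) ≤ k * ε ^ 2)
    {p : EuclideanSpace ℝ (Fin n)} (hp : p ∈ convexHull ℝ (S : Set (EuclideanSpace ℝ (Fin n)))) :
    ∃ f : Fin k → EuclideanSpace ℝ (Fin n), (∀ i, f i ∈ S) ∧
      ∀ x ∈ X, |inner ℝ x (p - (k : ℝ)⁻¹ • ∑ i, f i)| ≤ ε := by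
  classical
  obtain ⟨w, hw0, hw1, hwp⟩ := Finset.mem_convexHull'.1 hp
  set θ : ℝ := ε / c ^ 2 with hθ
  have hθpos : 0 < θ := by positivity
  have hmean : ∀ x : EuclideanSpace ℝ (Fin n), ∑ z ∈ S, w z * inner ℝ x (z - p) = 0 := by
    intro x
    have h1 : ∑ z ∈ S, w z * inner ℝ x (z - p) = inner ℝ x (∑ z ∈ S, w z • (z - p)) := by
      rw [inner_sum]
      simp [real_inner_smul_right]
    rw [h1]
    have h2 : ∑ z ∈ S, w z • (z - p) = 0 := by
      simp only [smul_sub]
      rw [Finset.sum_sub_distrib, hwp, ← Finset.sum_smul, hw1, one_smul, sub_self]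
    rw [h2, inner_zero_right]
  have hbd : ∀ x ∈ X, ∀ z ∈ S, |inner ℝ x (z - p)| ≤ c := by
    intro x hx z hz
    have e1 : z - p = ∑ z' ∈ S, w z' • (z - z') := by
      simp only [smul_sub]
      rw [Finset.sum_sub_distrib, hwp, ← Finset.sum_smul, hw1, one_smul]
    have e2 : inner ℝ x (z - p) = ∑ z' ∈ S, w z' * inner ℝ x (z - z') := by
      rw [e1, inner_sum]
      simp [real_inner_smul_right]
    rw [abs_le]
    constructor
    · have h3 : ∑ z' ∈ S, w z' * (-c) ≤ ∑ z' ∈ S, w z' * inner ℝ x (z - z') := by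
        apply Finset.sum_le_sum
        intro z' hz'
        apply mul_le_mul_of_nonneg_left _ (hw0 z' hz')
        have h4 := hrange x hx z' hz' z hz
        have e3 : inner ℝ x (z - z') = - inner ℝ x (z' - z) := by
          rw [← inner_neg_right, neg_sub]
        linarith
      rw [← Finset.sum_mul, hw1, one_mul] at h3
      linarith
    · have h3 : ∑ z' ∈ S, w z' * inner ℝ x (z - z') ≤ ∑ z' ∈ S, w z' * c := by
        apply Finset.sum_le_sum
        intro z' hz'
        exact mul_le_mul_of_nonneg_left (hrange x hx z hz z' hz') (hw0 z' hz')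
      rw [← Finset.sum_mul, hw1, one_mul] at h3
      linarith
  let Φ : EuclideanSpace ℝ (Fin n) → ℝ := fun D =>
    ∑ x ∈ X, (Real.exp (θ * inner ℝ x D) + Real.exp (-(θ * inner ℝ x D)))
  have hΦdef : ∀ D, Φ D =
    ∑ x ∈ X, (Real.exp (θ * inner ℝ x D) + Real.exp (-(θ * inner ℝ x D))) := fun _ => rfl
  set e : ℝ := Real.exp ((θ * c) ^ 2 / 2) with he
  have hepos : 0 < e := Real.exp_pos _
  have hstep : ∀ D : EuclideanSpace ℝ (Fin n), ∃ z ∈ S, Φ (D + (z - p)) ≤ e * Φ D := by
    intro D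
    have havg : ∑ z ∈ S, w z * Φ (D + (z - p)) ≤ e * Φ D := by
      have h1 : ∑ z ∈ S, w z * Φ (D + (z - p)) = ∑ x ∈ X,
          (Real.exp (θ * inner ℝ x D) * ∑ z ∈ S, w z * Real.exp (θ * inner ℝ x (z - p))
          + Real.exp (-(θ * inner ℝ x D)) *
            ∑ z ∈ S, w z * Real.exp (-(θ * inner ℝ x (z - p)))) := by
        simp only [hΦdef, Finset.mul_sum]
        rw [Finset.sum_comm]
        apply Finset.sum_congr rfl
        intro x _
        rw [← Finset.sum_add_distrib]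
        apply Finset.sum_congr rfl
        intro z _
        have q1 : Real.exp (θ * inner ℝ x (D + (z - p)))
            = Real.exp (θ * inner ℝ x D) * Real.exp (θ * inner ℝ x (z - p)) := by
          rw [inner_add_right, mul_add, Real.exp_add]
        have q2 : Real.exp (-(θ * inner ℝ x (D + (z - p))))
            = Real.exp (-(θ * inner ℝ x D)) * Real.exp (-(θ * inner ℝ x (z - p))) := by
          rw [inner_add_right, mul_add, neg_add, Real.exp_add]
        rw [q1, q2]
        ring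
      rw [h1, hΦdef, Finset.mul_sum]
      apply Finset.sum_le_sum
      intro x hx
      have hθc : 0 < θ * c := by positivity
      have hA := sum_mul_exp_le S w (fun z => θ * inner ℝ x (z - p)) hθc hw0 hw1
        (by
          intro z hz
          rw [abs_mul, abs_of_pos hθpos]
          exact mul_le_mul_of_nonneg_left (hbd x hx z hz) hθpos.le)
        (by
          calc ∑ z ∈ S, w z * (θ * inner ℝ x (z - p))
              = θ * ∑ z ∈ S, w z * inner ℝ x (z - p) := by
                rw [Finset.mul_sum]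
                apply Finset.sum_congr rfl
                intros
                ring
            _ = 0 := by rw [hmean x, mul_zero])
      have hB := sum_mul_exp_le S w (fun z => -(θ * inner ℝ x (z - p))) hθc hw0 hw1
        (by
          intro z hz
          rw [abs_neg, abs_mul, abs_of_pos hθpos]
          exact mul_le_mul_of_nonneg_left (hbd x hx z hz) hθpos.le)
        (by
          calc ∑ z ∈ S, w z * (-(θ * inner ℝ x (z - p)))
              = -θ * ∑ z ∈ S, w z * inner ℝ x (z - p) := by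
                rw [Finset.mul_sum]
                apply Finset.sum_congr rfl
                intros
                ring
            _ = 0 := by rw [hmean x, mul_zero])
      calc Real.exp (θ * inner ℝ x D) * ∑ z ∈ S, w z * Real.exp (θ * inner ℝ x (z - p))
          + Real.exp (-(θ * inner ℝ x D)) *
            ∑ z ∈ S, w z * Real.exp (-(θ * inner ℝ x (z - p)))
          ≤ Real.exp (θ * inner ℝ x D) * e + Real.exp (-(θ * inner ℝ x D)) * e := by
            apply add_le_add
            · exact mul_le_mul_of_nonneg_left hA (Real.exp_pos _).le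
            · exact mul_le_mul_of_nonneg_left hB (Real.exp_pos _).le
        _ = e * (Real.exp (θ * inner ℝ x D) + Real.exp (-(θ * inner ℝ x D))) := by ring
    by_contra hcon
    push Not at hcon
    obtain ⟨z0, hz0, hz0pos⟩ : ∃ z ∈ S, 0 < w z := by
      apply Finset.exists_lt_of_sum_lt (f := fun _ => (0 : ℝ))
      rw [Finset.sum_const_zero, hw1]
      exact one_pos
    have hlt : e * Φ D < ∑ z ∈ S, w z * Φ (D + (z - p)) := by
      calc e * Φ D = ∑ z ∈ S, w z * (e * Φ D) := by rw [← Finset.sum_mul, hw1, one_mul]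
        _ < ∑ z ∈ S, w z * Φ (D + (z - p)) :=
          Finset.sum_lt_sum
            (fun z hz => mul_le_mul_of_nonneg_left (hcon z hz).le (hw0 z hz))
            ⟨z0, hz0, mul_lt_mul_of_pos_left (hcon z0 hz0) hz0pos⟩
    linarith
  choose step hstepS hstepΦ using hstep
  let Dseq : ℕ → EuclideanSpace ℝ (Fin n) := fun t =>
    Nat.rec (0 : EuclideanSpace ℝ (Fin n)) (fun _ D => D + (step D - p)) t
  have hD0 : Dseq 0 = 0 := rfl
  have hDs : ∀ t, Dseq (t + 1) = Dseq t + (step (Dseq t) - p) := fun t => rfl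
  have hΦt : ∀ t, Φ (Dseq t) ≤ e ^ t * Φ 0 := by
    intro t
    induction t with
    | zero => simp [hD0]
    | succ t ih =>
      rw [hDs, pow_succ]
      calc Φ (Dseq t + (step (Dseq t) - p)) ≤ e * Φ (Dseq t) := hstepΦ _
        _ ≤ e * (e ^ t * Φ 0) := mul_le_mul_of_nonneg_left ih hepos.le
        _ = e ^ t * e * Φ 0 := by ring
  have hDsum : ∀ t, Dseq t = ∑ i ∈ Finset.range t, (step (Dseq i) - p) := by
    intro t
    induction t with
    | zero => simp [hD0]
    | succ t ih => rw [hDs, Finset.sum_range_succ, ← ih]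
  have hΦ0 : Φ 0 ≤ 2 * m := by
    rw [hΦdef]
    simp only [inner_zero_right, mul_zero, neg_zero, Real.exp_zero]
    rw [Finset.sum_const, nsmul_eq_mul]
    have : (X.card : ℝ) ≤ m := by exact_mod_cast hX
    linarith
  have hkpos : (0 : ℝ) < k := by exact_mod_cast hk1
  have hmpos : (0 : ℝ) < 2 * m := by
    have : (1 : ℝ) ≤ m := by exact_mod_cast hm
    linarith
  refine ⟨fun i => step (Dseq i), fun i => hstepS _, ?_⟩
  intro x hx
  have hA : p - (k : ℝ)⁻¹ • ∑ i : Fin k, step (Dseq i) = -((k : ℝ)⁻¹ • Dseq k) := by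
    rw [hDsum k, Finset.sum_sub_distrib, Fin.sum_univ_eq_sum_range (fun i => step (Dseq i)) k,
      Finset.sum_const, Finset.card_range, ← Nat.cast_smul_eq_nsmul ℝ, smul_sub, smul_smul,
      inv_mul_cancel₀ hkpos.ne', one_smul]
    abel
  rw [hA, inner_neg_right, abs_neg, real_inner_smul_right, abs_mul, abs_of_pos (inv_pos.2 hkpos)]
  set A : ℝ := inner ℝ x (Dseq k) with hAdef
  have hsingle : Real.exp (θ * A) + Real.exp (-(θ * A)) ≤ Φ (Dseq k) := by
    rw [hΦdef]
    exact Finset.single_le_sum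
      (f := fun x => Real.exp (θ * inner ℝ x (Dseq k)) + Real.exp (-(θ * inner ℝ x (Dseq k))))
      (fun _ _ => by positivity) hx
  have hub : Φ (Dseq k) ≤ Real.exp (k * ((θ * c) ^ 2 / 2) + Real.log (2 * m)) := by
    rw [Real.exp_add, Real.exp_log hmpos, Real.exp_nat_mul]
    calc Φ (Dseq k) ≤ e ^ k * Φ 0 := hΦt k
      _ ≤ e ^ k * (2 * m) := mul_le_mul_of_nonneg_left hΦ0 (by positivity)
  have hp1 : θ * A ≤ k * ((θ * c) ^ 2 / 2) + Real.log (2 * m) := by
    rw [← Real.exp_le_exp]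
    have := Real.exp_pos (-(θ * A))
    linarith
  have hp2 : -(θ * A) ≤ k * ((θ * c) ^ 2 / 2) + Real.log (2 * m) := by
    rw [← Real.exp_le_exp]
    have := Real.exp_pos (θ * A)
    linarith
  have hθA : θ * |A| ≤ k * ((θ * c) ^ 2 / 2) + Real.log (2 * m) := by
    rcases abs_cases A with ⟨h, _⟩ | ⟨h, _⟩
    · rw [h]; exact hp1
    · rw [h]; linarith
  have hc2 : 0 < c ^ 2 := by positivity
  have hθc2 : θ * c ^ 2 = ε := by
    rw [hθ]
    field_simp
  have h5 : ε * |A| ≤ k * ε ^ 2 / 2 + c ^ 2 * Real.log (2 * m) := by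
    have h6 := mul_le_mul_of_nonneg_left hθA hc2.le
    have e1 : c ^ 2 * (θ * |A|) = ε * |A| := by rw [← hθc2]; ring
    have e2 : c ^ 2 * (k * ((θ * c) ^ 2 / 2) + Real.log (2 * m))
        = k * ε ^ 2 / 2 + c ^ 2 * Real.log (2 * m) := by
      rw [← hθc2]; ring
    rw [e1, e2] at h6
    exact h6
  have h7 : ε * |A| ≤ ε * (k * ε) := by nlinarith
  have h8 : |A| ≤ k * ε := le_of_mul_le_mul_left h7 hε
  rw [inv_mul_le_iff₀ hkpos]
  exact h8

end Vale.Agent.Lib.P126
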