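import Vale.Agent.Lib.P126.Quad.Main

/-!
# P126: the quadratic duality bound in the multiplicative form of the conjecture
`log N(L°, 70 K°) ≤ b log N(K,L)` with `b = 171500 (1 + log N(K,L))`.
-/

open scoped Pointwise

namespace Vale.Agent.Lib.P126

variable {n : ℕ}

/-- If one translate of `L` covers `K`, then `K ⊆ L`. -/
theorem subset_of_covNum_eq_one {K L : Set (EuclideanSpace ℝ (Fin n))} (hK : IsSymmConvexBody K)
    (hL : IsSymmConvexBody L) (h : covNum K L = 1) : K ⊆ L := by
  obtain ⟨s, hscard, hs⟩ := exists_cover_card_eq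
    (exists_finite_cover hK.isCompact.isBounded hL.interior_nonempty)
  rw [h] at hscard
  obtain ⟨x, rfl⟩ := Finset.card_eq_one.1 hscard
  intro u hu
  have h1 := hs hu
  have h2 := hs (hK.neg_mem u hu)
  simp only [Finset.mem_singleton, Set.iUnion_iUnion_eq_left] at h1 h2
  obtain ⟨l, hl, hl'⟩ := Set.mem_vadd_set.1 h1
  obtain ⟨l₂, hl₂, hl₂'⟩ := Set.mem_vadd_set.1 h2
  simp only [vadd_eq_add] at hl' hl₂'
  have h3 := hL.convex hl (hL.neg_mem l₂ hl₂) (a := 1 / 2) (b := 1 / 2) (by norm_num) (by norm_num)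
    (by norm_num)
  have h4 : (1 / 2 : ℝ) • l + (1 / 2 : ℝ) • (-l₂) = u := by
    have e1 : l = u - x := by rw [← hl']; abel
    have e2 : l₂ = -u - x := by rw [← hl₂']; abel
    rw [e1, e2, ← smul_add]
    have : u - x + -(-u - x) = (2 : ℝ) • u := by rw [two_smul]; abel
    rw [this, smul_smul]
    norm_num
  rwa [h4] at h3

theorem covNum_polar_le_one_of_covNum_eq_one {K L : Set (EuclideanSpace ℝ (Fin n))}
    (hK : IsSymmConvexBody K) (hL : IsSymmConvexBody L) (h : covNum K L = 1) :
    covNum (polarBody L) ((70 : ℝ) • polarBody K) ≤ 1 := by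
  have hKL := subset_of_covNum_eq_one hK hL h
  refine (covNum_le_card ({0} : Finset (EuclideanSpace ℝ (Fin n))) ?_).trans (by simp)
  intro z hz
  simp only [Finset.mem_singleton, Set.iUnion_iUnion_eq_left]
  rw [Set.mem_vadd_set]
  refine ⟨(70 : ℝ) • ((70 : ℝ)⁻¹ • z), ?_, ?_⟩
  · apply Set.smul_mem_smul_set
    intro u hu
    have := hz u (hKL hu)
    rw [real_inner_smul_right]
    linarith
  · rw [smul_smul]
    norm_num

/-- numerics: from the additive to the multiplicative form -/
theorem mul_form_of_quad (m M : ℕ) (hm : 1 ≤ m) (h1 : m = 1 → M ≤ 1)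
    (h : Real.log M ≤ 70000 * (1 + Real.log m) ^ 2) :
    Real.log M ≤ 171500 * (1 + Real.log m) * Real.log m := by
  rcases Nat.lt_or_ge 1 m with hm2 | hm1
  · have h2 : (2 : ℝ) ≤ m := by exact_mod_cast hm2
    have hlog : Real.log 2 ≤ Real.log m := Real.log_le_log (by norm_num) h2
    have hl2 : (0.6931471803 : ℝ) < Real.log 2 := Real.log_two_gt_d9
    set l := Real.log m with hl
    have h3 : 1 + l ≤ 2.45 * l := by linarith
    have h4 : 0 ≤ 1 + l := by linarith
    calc Real.log M ≤ 70000 * (1 + l) ^ 2 := h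
      _ = 70000 * (1 + l) * (1 + l) := by ring
      _ ≤ 70000 * (1 + l) * (2.45 * l) := by
          apply mul_le_mul_of_nonneg_left h3
          positivity
      _ = 171500 * (1 + l) * l := by ring
  · have hm' : m = 1 := le_antisymm hm1 hm
    have hM := h1 hm'
    subst hm'
    have : Real.log M = 0 := by
      interval_cases M <;> simp
    rw [this]
    simp

/-- **Quadratic duality in multiplicative form.** -/
theorem log_covNum_quad_mul {K L : Set (EuclideanSpace ℝ (Fin n))} (hK : IsSymmConvexBody K)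
    (hL : IsSymmConvexBody L) :
    Real.log (covNum (polarBody L) ((70 : ℝ) • polarBody K))
        ≤ 171500 * (1 + Real.log (covNum K L)) * Real.log (covNum K L) :=
  mul_form_of_quad _ _ (one_le_covNum hK hL)
    (fun h => covNum_polar_le_one_of_covNum_eq_one hK hL h) (log_covNum_quad_two_sided hK hL).1

/-- Both inequalities of the conjecture at scale `70` with `b = 171500 (1 + log N)`. -/
theorem log_covNum_quad_mul_two_sided {K L : Set (EuclideanSpace ℝ (Fin n))}
    (hK : IsSymmConvexBody K) (hL : IsSymmConvexBody L) :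
    Real.log (covNum (polarBody L) ((70 : ℝ) • polarBody K))
        ≤ 171500 * (1 + Real.log (covNum K L)) * Real.log (covNum K L) ∧
      Real.log (covNum K L)
        ≤ 171500 * (1 + Real.log (covNum (polarBody L) ((70 : ℝ)⁻¹ • polarBody K))) *
            Real.log (covNum (polarBody L) ((70 : ℝ)⁻¹ • polarBody K)) := by
  refine ⟨log_covNum_quad_mul hK hL, ?_⟩
  have h70 : (0 : ℝ) < 70 := by norm_num
  have hK1 : IsSymmConvexBody (polarBody L) := hL.polarBody
  have hL1 : IsSymmConvexBody ((70 : ℝ)⁻¹ • polarBody K) := hK.polarBody.smul (inv_pos.2 h70)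
  have key := log_covNum_quad_mul hK1 hL1
  rw [polarBody_smul _ (inv_pos.2 h70), inv_inv, hK.polarBody_polarBody, hL.polarBody_polarBody,
    covNum_smul_smul _ _ h70] at key
  exact key

end Vale.Agent.Lib.P126
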