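import Mathlib

namespace Vale.Agent.Lib.P126

/-- LEAF Q15. Numerics.  `k = ⌈2048 log(2m)⌉₊ ≤ 2048 log m + 2048 log 2 + 1 ≤ 2048 (1 + log m)`
(`Real.log_two_lt_d9`, `Nat.ceil_lt_add_one`).  `128 ^ clog 128 m ≤ 128 m`
(`Nat.pow_pred_clog_lt_self` for `m ≥ 2`), so
`log (65^(7N) m^7) ≤ 7 log (128^N) + 7 log m ≤ 14 log m + 49 log 2 ≤ 34 (1 + log m)`.
`2048 * 34 = 69632`. -/
theorem log_le_of_le_quad (m M : ℕ) (hm : 1 ≤ m)
    (h : M ≤ (65 ^ (7 * Nat.clog 128 m) * m ^ 7) ^ ⌈2048 * Real.log (2 * m)⌉₊) :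
    Real.log M ≤ 70000 * (1 + Real.log m) ^ 2 := by
  have hmR : (1 : ℝ) ≤ (m : ℝ) := by exact_mod_cast hm
  have hm0 : (0 : ℝ) < (m : ℝ) := by linarith
  have hL : 0 ≤ Real.log m := Real.log_nonneg hmR
  have hl2 : Real.log 2 < 0.6931471808 := Real.log_two_lt_d9
  have hl2' : 0 < Real.log 2 := Real.log_pos (by norm_num)
  set L := Real.log m with hLdef
  set N := Nat.clog 128 m with hN
  set k := ⌈2048 * Real.log (2 * m)⌉₊ with hk
  -- bound on k
  have hlog2m : Real.log (2 * m) = Real.log 2 + L := by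
    rw [Real.log_mul (by norm_num) hm0.ne']
  have hk1 : (k : ℝ) ≤ 2048 * (1 + L) := by
    have h0 : 0 ≤ 2048 * Real.log (2 * m) := by
      rw [hlog2m]; positivity
    have h3 : (k : ℝ) ≤ 2048 * Real.log (2 * m) + 1 := (Nat.ceil_lt_add_one h0).le
    rw [hlog2m] at h3
    nlinarith
  -- bound on 128 ^ N
  have hpow : 128 ^ N ≤ 128 * m := by
    rcases Nat.lt_or_ge 1 m with h1 | h1
    · have hlt := Nat.pow_pred_clog_lt_self (b := 128) (by norm_num) h1
      have hNpos : 0 < N := Nat.clog_pos (by norm_num) h1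
      obtain ⟨n, hn⟩ : ∃ n, N = n + 1 := ⟨N - 1, by omega⟩
      rw [← hN, hn] at hlt
      simp only [Nat.pred_succ] at hlt
      rw [hn, pow_succ]
      omega
    · have : m = 1 := by omega
      have hN0 : N = 0 := by rw [hN, this]; simp
      rw [hN0]; omega
  have hpowR : ((128 : ℝ)) ^ N ≤ 128 * m := by exact_mod_cast hpow
  have hlog128 : Real.log 128 = 7 * Real.log 2 := by
    have : (128 : ℝ) = 2 ^ 7 := by norm_num
    rw [this, Real.log_pow]; norm_num
  have hNlog : (N : ℝ) * Real.log 128 ≤ Real.log 128 + L := by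
    have h1 : Real.log ((128 : ℝ) ^ N) ≤ Real.log (128 * m) :=
      Real.log_le_log (by positivity) hpowR
    rw [Real.log_pow, Real.log_mul (by norm_num) hm0.ne'] at h1
    exact h1
  have h65 : Real.log 65 ≤ Real.log 128 := Real.log_le_log (by norm_num) (by norm_num)
  -- the base
  set X : ℝ := (65 : ℝ) ^ (7 * N) * (m : ℝ) ^ 7 with hX
  have hXpos : 0 < X := by positivity
  have hX1 : 1 ≤ X := by
    have h1 : (1 : ℝ) ≤ (65 : ℝ) ^ (7 * N) := one_le_pow₀ (by norm_num)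
    have h2 : (1 : ℝ) ≤ (m : ℝ) ^ 7 := one_le_pow₀ hmR
    calc (1 : ℝ) = 1 * 1 := by ring
      _ ≤ X := mul_le_mul h1 h2 (by norm_num) (by positivity)
  have hlogX0 : 0 ≤ Real.log X := Real.log_nonneg hX1
  have hlogX : Real.log X ≤ 34 * (1 + L) := by
    rw [hX, Real.log_mul (by positivity) (by positivity), Real.log_pow, Real.log_pow]
    push_cast
    have hN0 : (0 : ℝ) ≤ (N : ℝ) := Nat.cast_nonneg _
    have h1 : (N : ℝ) * Real.log 65 ≤ (N : ℝ) * Real.log 128 :=
      mul_le_mul_of_nonneg_left h65 hN0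
    rw [hlog128] at hNlog h1
    nlinarith
  rcases Nat.eq_zero_or_pos M with hM | hM
  · subst hM
    simp only [Nat.cast_zero, Real.log_zero]
    positivity
  · have hMR : (0 : ℝ) < (M : ℝ) := by exact_mod_cast hM
    have hle : (M : ℝ) ≤ X ^ k := by
      have : ((M : ℕ) : ℝ) ≤ (((65 ^ (7 * N) * m ^ 7) ^ k : ℕ) : ℝ) := by exact_mod_cast h
      rw [hX]
      push_cast at this
      exact this
    have h1 : Real.log M ≤ (k : ℝ) * Real.log X := by
      have := Real.log_le_log hMR hle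
      rwa [Real.log_pow] at this
    have h2 : (k : ℝ) * Real.log X ≤ (2048 * (1 + L)) * (34 * (1 + L)) :=
      mul_le_mul hk1 hlogX hlogX0 (by positivity)
    nlinarith [sq_nonneg (1 + L)]

end Vale.Agent.Lib.P126
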