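import Vale.Agent.Lib.P126.Quad.Defs

open scoped Pointwise

namespace Vale.Agent.Lib.P126

variable {n : ℕ}

/-- LEAF Q1. A bound on all `a`-separated finite subsets of `L°` bounds `N(L°, a K°)`:
take a separated set of maximal cardinality; it is a net. -/
theorem covNum_polar_le_of_sep_bound {K L : Set (EuclideanSpace ℝ (Fin n))}
    (hK : IsSymmConvexBody K) {a : ℝ} (ha : 0 < a) (B : ℕ)
    (h : ∀ Y : Finset (EuclideanSpace ℝ (Fin n)), (∀ y ∈ Y, y ∈ polarBody L) → KSep K a Y →
      Y.card ≤ B) :
    covNum (polarBody L) (a • polarBody K) ≤ B := by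
  classical
  set Q : ℕ → Prop := fun k => ∃ Y : Finset (EuclideanSpace ℝ (Fin n)),
    (∀ y ∈ Y, y ∈ polarBody L) ∧ KSep K a Y ∧ Y.card = k with hQ
  have hQ0 : Q 0 := ⟨∅, by simp, by intro y hy; simp at hy, rfl⟩
  have hspec : Q (Nat.findGreatest Q B) := Nat.findGreatest_spec (Nat.zero_le B) hQ0
  obtain ⟨Y, hYL, hYsep, hYcard⟩ := hspec
  have hcover : polarBody L ⊆ ⋃ x ∈ Y, (x +ᵥ (a • polarBody K)) := by
    intro z hz
    by_contra hzc
    have hsepz : ∀ y ∈ Y, ∃ u ∈ K, a < inner ℝ u (z - y) := by
      intro y hy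
      by_contra hno
      push Not at hno
      apply hzc
      refine Set.mem_iUnion₂.2 ⟨y, hy, ?_⟩
      refine Set.mem_vadd_set.2 ⟨z - y, ?_, by simp⟩
      refine Set.mem_smul_set.2 ⟨a⁻¹ • (z - y), ?_, ?_⟩
      · intro u hu
        rw [inner_smul_right, inv_mul_le_iff₀ ha, mul_one]
        exact hno u hu
      · rw [smul_smul, mul_inv_cancel₀ ha.ne', one_smul]
    have hzY : z ∉ Y := by
      intro hzY
      obtain ⟨u, _, hu⟩ := hsepz z hzY
      rw [sub_self, inner_zero_right] at hu
      exact absurd hu (not_lt.2 ha.le)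
    have hL' : ∀ y ∈ insert z Y, y ∈ polarBody L := by
      intro y hy
      rcases Finset.mem_insert.1 hy with rfl | hy
      · exact hz
      · exact hYL y hy
    have hsep' : KSep K a (insert z Y) := by
      intro y hy y' hy' hne
      rcases Finset.mem_insert.1 hy with h1 | h1
      · rcases Finset.mem_insert.1 hy' with h2 | h2
        · exact absurd (h1.trans h2.symm) hne
        · rw [h1]; exact hsepz y' h2
      · rcases Finset.mem_insert.1 hy' with h2 | h2
        · obtain ⟨u, huK, hu⟩ := hsepz y h1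
          refine ⟨-u, hK.neg_mem u huK, ?_⟩
          have : inner ℝ (-u) (y - y') = inner ℝ u (y' - y) := by
            rw [inner_neg_left, ← inner_neg_right, neg_sub]
          rw [this, h2]; exact hu
        · exact hYsep y h1 y' h2 hne
    have hcard : (insert z Y).card = Y.card + 1 := Finset.card_insert_of_notMem hzY
    have hle : (insert z Y).card ≤ B := h _ hL' hsep'
    have hgr : (insert z Y).card ≤ Nat.findGreatest Q B :=
      Nat.le_findGreatest hle ⟨insert z Y, hL', hsep', rfl⟩
    omega
  calc covNum (polarBody L) (a • polarBody K) ≤ Y.card := covNum_le_card Y hcover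
    _ ≤ B := h Y hYL hYsep

end Vale.Agent.Lib.P126
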