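import Vale.Agent.Lib.P126.Quad.Defs

open scoped Pointwise

namespace Vale.Agent.Lib.P126

variable {n : ℕ}

/-- LEAF Q12. Tree step: `T' = {(127/128) u + (1/128) t : u ∈ U, t ∈ T}`.
If `u ≠ u'`, the functional `ζ` of the pair `(u,u')` gives
`≥ (127/128)(s/8) - (1/128)(8s) = 63 s/1024 ≥ s/17`;
if `u = u'`, `t ≠ t'`, the functional of `(t,t')` gives `(1/128)(128 s/17)`.  In particular
`(u,t) ↦ (127/128) u + (1/128) t` is injective on `U ×ˢ T`. -/
theorem tree_step {K L : Set (EuclideanSpace ℝ (Fin n))} (hK : IsSymmConvexBody K)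
    {s : ℝ} (hs : 0 < s) (U T : Finset (EuclideanSpace ℝ (Fin n)))
    (hU : QSep K L s U) (hT : FSep K L (128 * s / 17) T) :
    ∃ T' : Finset (EuclideanSpace ℝ (Fin n)), FSep K L (s / 17) T' ∧
      T'.card = U.card * T.card := by
  classical
  set F : EuclideanSpace ℝ (Fin n) × EuclideanSpace ℝ (Fin n) → EuclideanSpace ℝ (Fin n) :=
    fun q => (127 / 128 : ℝ) • q.1 + (1 / 128 : ℝ) • q.2 with hF
  have key : ∀ u ∈ U, ∀ t ∈ T, ∀ u' ∈ U, ∀ t' ∈ T, (u, t) ≠ (u', t') →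
      ∃ ζ : EuclideanSpace ℝ (Fin n), (∀ l ∈ L, inner ℝ l ζ ≤ 2) ∧
        s / 17 ≤ inner ℝ (F (u, t) - F (u', t')) ζ := by
    intro u hu t ht u' hu' t' ht' hne
    have hexp : ∀ ζ : EuclideanSpace ℝ (Fin n), inner ℝ (F (u, t) - F (u', t')) ζ
        = (127 / 128) * inner ℝ (u - u') ζ + (1 / 128) * inner ℝ (t - t') ζ := by
      intro ζ
      have h0 : F (u, t) - F (u', t')
          = (127 / 128 : ℝ) • (u - u') + (1 / 128 : ℝ) • (t - t') := by
        simp only [hF, smul_sub]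
        abel
      rw [h0, inner_add_left, real_inner_smul_left, real_inner_smul_left]
    by_cases huu : u = u'
    · subst huu
      have htt : t ≠ t' := fun h => hne (by rw [h])
      obtain ⟨ζ, h1, h2⟩ := hT.2 t ht t' ht' htt
      refine ⟨ζ, h1, ?_⟩
      rw [hexp, sub_self, inner_zero_left]
      linarith
    · obtain ⟨ζ, h1, h2, h3⟩ := hU.2 u hu u' hu' huu
      refine ⟨ζ, h1, ?_⟩
      rw [hexp]
      have a1 := h2 t' (hT.1 t' ht')
      have a2 := h2 (-t) (hK.neg_mem t (hT.1 t ht))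
      rw [inner_neg_left] at a2
      have a3 : inner ℝ (t - t') ζ = inner ℝ t ζ - inner ℝ t' ζ := inner_sub_left _ _ _
      rw [a3]
      linarith
  have hinj : Set.InjOn F ((U ×ˢ T : Finset _) : Set _) := by
    intro q hq q' hq' hqq
    by_contra hne
    obtain ⟨hq1, hq2⟩ := Finset.mem_product.1 hq
    obtain ⟨hq1', hq2'⟩ := Finset.mem_product.1 hq'
    obtain ⟨ζ, -, h⟩ := key q.1 hq1 q.2 hq2 q'.1 hq1' q'.2 hq2' hne
    have e : F (q.1, q.2) - F (q'.1, q'.2) = 0 := sub_eq_zero.2 hqq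
    rw [e, inner_zero_left] at h
    have : 0 < s / 17 := by positivity
    linarith
  refine ⟨(U ×ˢ T).image F, ⟨?_, ?_⟩, ?_⟩
  · intro x hx
    obtain ⟨q, hq, rfl⟩ := Finset.mem_image.1 hx
    obtain ⟨hq1, hq2⟩ := Finset.mem_product.1 hq
    exact hK.convex (hU.1 _ hq1) (hT.1 _ hq2) (by norm_num) (by norm_num) (by norm_num)
  · intro x hx x' hx' hne
    obtain ⟨q, hq, rfl⟩ := Finset.mem_image.1 hx
    obtain ⟨q', hq', rfl⟩ := Finset.mem_image.1 hx'
    obtain ⟨hq1, hq2⟩ := Finset.mem_product.1 hq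
    obtain ⟨hq1', hq2'⟩ := Finset.mem_product.1 hq'
    exact key q.1 hq1 q.2 hq2 q'.1 hq1' q'.2 hq2'
      (fun h => hne (by rw [show q = q' from h]))
  · rw [Finset.card_image_of_injOn hinj, Finset.card_product]

end Vale.Agent.Lib.P126
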